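import Vale.Agent.P181.H303.Spec2

set_option autoImplicit false

open scoped TensorProduct

namespace Vale.Agent.P181.H303

open Vale.Agent.P181 Vale.Agent.P181.H280 Finset

lemma zero_mem_AH {W : Type*} [AddCommGroup W] [Module ℂ W] (G : Set W) : (0 : W) ∈ AH G 1 :=
  ⟨0, fun i => i.elim0, fun i => i.elim0, fun i => i.elim0, by simp, by simp⟩

/-- The conclusion of `RowREP` with `J` terms. -/
def Rp {a n : ℕ} (q : ℕ) (x : Fin a → EE (n + 1))
    (F : MultilinearMap ℂ (fun _ : Fin a => MvPolynomial (Fin (n + 1)) ℂ) ℂ)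
    (C : Finset (Fin a)) (B : ℝ) (J : ℕ) : Prop :=
  ∃ (w : Fin J → ℂ) (f : Fin J → MvPolynomial (Fin (n + 1)) ℂ),
    ∑ j, ‖w j‖ ≤ B ∧ (∀ j, f j ∈ AH (MonoF (fun i => lin (x i)) C a) 1) ∧
    ∀ (R : Finset (Fin a)) (ρ : Fin a → Fin a), Set.BijOn ρ R C →
      ∀ h : Fin a → MvPolynomial (Fin (n + 1)) ℂ,
      ∑ j, w j * F (fun r => if r ∈ R then f j ^ q else h r) =
        F (fun r => if r ∈ R then lin (x (ρ r)) ^ (q * a) else h r)

lemma Rp.succ {a n q : ℕ} {x : Fin a → EE (n + 1)}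
    {F : MultilinearMap ℂ (fun _ : Fin a => MvPolynomial (Fin (n + 1)) ℂ) ℂ}
    {C : Finset (Fin a)} {B : ℝ} {J : ℕ} (h : Rp q x F C B J) : Rp q x F C B (J + 1) := by
  obtain ⟨w, f, h1, h2, h3⟩ := h
  refine ⟨Fin.snoc w 0, Fin.snoc f 0, ?_, ?_, ?_⟩
  · rw [Fin.sum_univ_castSucc]
    simpa using h1
  · intro j
    refine Fin.lastCases ?_ (fun i => ?_) j
    · rw [Fin.snoc_last]
      exact zero_mem_AH _
    · rw [Fin.snoc_castSucc]
      exact h2 i
  · intro R ρ hρ g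
    rw [Fin.sum_univ_castSucc, ← h3 R ρ hρ g]
    simp only [Fin.snoc_castSucc, Fin.snoc_last, zero_mul, add_zero]

lemma Rp.le {a n q : ℕ} {x : Fin a → EE (n + 1)}
    {F : MultilinearMap ℂ (fun _ : Fin a => MvPolynomial (Fin (n + 1)) ℂ) ℂ}
    {C : Finset (Fin a)} {B : ℝ} {J J' : ℕ} (h : Rp q x F C B J) (hJ : J ≤ J') :
    Rp q x F C B J' := by
  induction J', hJ using Nat.le_induction with
  | base => exact h
  | succ k _ ih => exact ih.succ

lemma lin_mem {n : ℕ} (u : EE n) : lin u ∈ linS n :=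
  Submodule.sum_mem _ (fun j _ => Submodule.smul_mem _ _ (X_mem_linS j))

lemma prod_mem_linS {n a : ℕ} (y : Fin a → MvPolynomial (Fin n) ℂ) (hy : ∀ i, y i ∈ linS n)
    (α : Fin a → ℕ) (s : Finset (Fin a)) : ∏ i ∈ s, y i ^ α i ∈ linS n ^ (∑ i ∈ s, α i) := by
  classical
  induction s using Finset.induction_on with
  | empty =>
    rw [Finset.prod_empty, Finset.sum_empty, pow_zero]
    exact Submodule.one_le.1 le_rfl
  | insert i s hi ih =>
    rw [Finset.prod_insert hi, Finset.sum_insert hi, pow_add]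
    exact Submodule.mul_mem_mul (Submodule.pow_mem_pow _ (hy i) _) ih

lemma AH_mem {W : Type*} [AddCommGroup W] [Module ℂ W] {G : Set W} {c : ℝ} (L : Submodule ℂ W)
    (h : ∀ g ∈ G, g ∈ L) {x : W} (hx : x ∈ AH G c) : x ∈ L := by
  obtain ⟨m, w, g, hg, _, rfl⟩ := hx
  exact Submodule.sum_mem _ (fun i _ => Submodule.smul_mem _ _ (h _ (hg i)))

theorem fin (hPM : RowPM) (hCF : RowCF) (hMIX : RowMIX) (hCL : RowCL) (hBN : RowBN)
    (hREP : ∀ B, RowREP B) (hRES : RowRES) (hNUM : RowNUM) (hHW : RowHW) (hNZ : RowNZ) :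
    RowFIN := by
  classical
  obtain ⟨C0, hPM⟩ := hPM
  obtain ⟨C, hC⟩ := hNUM C0
  refine ⟨C, ?_⟩
  intro a q K n hq hK ha2 hCa lam hlam x hx hx0
  by_contra hne
  obtain ⟨l, rfl⟩ := exists_elOf x
  have ha1 : 1 ≤ a := by omega
  have hb1 : 1 ≤ q * a := Nat.mul_pos hq (by omega)
  obtain ⟨hn1, hn2⟩ := hC a q K hq hK hCa ha2
  have hS1 : 1 ≤ 2 * K := by omega
  obtain ⟨x, hx1, hpos, hmax, hsum⟩ := hBN a (q * a) n (lam 0) (formOf l) ha1 hb1
    (fun u e he he0 => hHW a (q * a) n lam l hx u e he he0) (hNZ a (q * a) n l hne)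
  have hbR : (0 : ℝ) < ((q * a : ℕ) : ℝ) := by exact_mod_cast hb1
  have hsum' : ∀ e : EE (n + 1), ‖e‖ = 1 → ∑ i, ‖inner ℂ e (x i)‖ ^ 2 ≤ K := by
    intro e he
    have h1 := hsum e he
    have h2 : ((lam 0 : ℕ) : ℝ) ≤ (K : ℝ) * ((q * a : ℕ) : ℝ) := by exact_mod_cast hlam
    have h3 := le_trans h1 h2
    rw [mul_comm (K : ℝ)] at h3
    exact le_of_mul_le_mul_left h3 hbR
  obtain ⟨cl, hcl1, hcl2⟩ := hCL a n K x hK hx1 hsum'
  -- the representations
  have hrep : ∀ c : Fin a, ∃ J, Rp q x (formOf l) (univ.filter (fun i => cl i = c))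
      (Real.exp (C0 * (q ^ 2 * (2 * K : ℕ) ^ 12))) J := by
    intro c
    rcases Nat.eq_zero_or_pos (univ.filter (fun i => cl i = c)).card with h0 | h1
    · refine ⟨1, fun _ => 1, fun _ => 0, ?_, fun _ => zero_mem_AH _, ?_⟩
      · simp only [norm_one, Finset.sum_const, Finset.card_univ, Fintype.card_fin, one_smul]
        apply Real.one_le_exp
        positivity
      · intro R ρ hρ h
        rw [Finset.card_eq_zero] at h0
        rw [h0, Finset.coe_empty] at hρ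
        have h2 : R = ∅ := by
          rw [← Finset.coe_eq_empty]
          by_contra h3
          obtain ⟨r, hr⟩ := Set.nonempty_iff_ne_empty.2 h3
          exact hρ.mapsTo hr
        subst h2
        simp
    · obtain ⟨J, w, f, h2, h3, h4⟩ := hREP (fun s q => Real.exp (C0 * (q ^ 2 * s ^ 12))) a q n x
        (formOf l) (fun σ P => formOf_symm l σ P) (univ.filter (fun i => cl i = c))
        (fun W _ _ T hT y => hPM _ q a h1 hq (hn1 _ (hcl1 c)) _ W T hT y)
      refine ⟨J, w, f, le_trans h2 ?_, h3, h4⟩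
      apply Real.exp_le_exp.2
      have h5 : (((univ.filter (fun i => cl i = c)).card : ℕ) : ℝ) ≤ ((2 * K : ℕ) : ℝ) := by
        exact_mod_cast hcl1 c
      gcongr
  choose J hJ using hrep
  have hJ' : ∀ c, Rp q x (formOf l) (univ.filter (fun i => cl i = c))
      (Real.exp (C0 * (q ^ 2 * (2 * K : ℕ) ^ 12))) (∑ c, J c) := fun c =>
    (hJ c).le (Finset.single_le_sum (fun _ _ => Nat.zero_le _) (Finset.mem_univ c))
  choose w f hw hf hwf using hJ'
  have hKR : (1 : ℝ) ≤ (K : ℝ) := by exact_mod_cast hK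
  have hδ : (0 : ℝ) ≤ 1 / (16 * (K : ℝ) ^ 2) := by positivity
  have hmix := fun (c : Fin q → Fin a) (g : Fin q → MvPolynomial (Fin (n + 1)) ℂ)
    (hg : ∀ l, g l ∈ AH (MonoF (fun i => lin (x i)) (univ.filter (fun i => cl i = c l)) a) 1) =>
    hMIX a q n (2 * K) x cl (1 / (16 * (K : ℝ) ^ 2)) ha1 hS1 hx1 hcl1 hδ hcl2 c g hg
  have hres := hRES (MvPolynomial (Fin (n + 1)) ℂ) a q (2 * K) (∑ c, J c) (formOf l) hq
    (fun σ P => formOf_symm l σ P) (linS (n + 1) ^ a) (fun G hG => formOf_pow l hx0 G hG) cl hcl1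
    (fun i => lin (x i) ^ (q * a)) w f (Real.exp (C0 * (q ^ 2 * (2 * K : ℕ) ^ 12)))
    ((((q * a : ℕ) : ℝ) + 1) ^ (q * (2 * K)))
    ((((q * a : ℕ) : ℝ) + 1) ^ (q * (2 * K)) *
      Real.exp (-((a : ℝ) / (2 * K : ℕ) * (1 / (16 * (K : ℝ) ^ 2)) / 4)))
    ‖formOf l (fun i => lin (x i) ^ (q * a))‖
    (Real.one_le_exp (by positivity))
    (one_le_pow₀ (by
      have : (0 : ℝ) ≤ ((q * a : ℕ) : ℝ) := Nat.cast_nonneg _
      linarith)) (by positivity) (norm_nonneg _)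
    (fun c j => AH_mem _ (fun g hg => by
      obtain ⟨α, _, h2, rfl⟩ := hg
      have h3 := prod_mem_linS (fun i => lin (x i)) (fun i => lin_mem _) α univ
      rwa [h2] at h3) (hf c j))
    hw hwf (fun h c => Bd (q * a) h c)
    (fun i T M hM => by rw [one_mul]; exact hM (x i) (hx1 i))
    (fun c j => by
      have h1 := (hmix (fun _ => c) (fun _ => f c j) (fun _ => hf c j)).1
      rwa [Finset.prod_const, Finset.card_univ, Fintype.card_fin] at h1)
    (fun k j hk => (hmix k (fun l => f (k l) (j (k l))) (fun l => hf _ _)).2 hk)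
    (fun h c hc hB => hCF a (q * a) (n + 1) (formOf l) _ hmax h c hc hB)
  have h4 : ‖formOf l (fun i => lin (x i) ^ (q * a))‖ < ‖formOf l (fun i => lin (x i) ^ (q * a))‖ :=
    lt_of_le_of_lt hres (by
      calc _ < ‖formOf l (fun i => lin (x i) ^ (q * a))‖ * 1 :=
            mul_lt_mul_of_pos_left hn2 hpos
        _ = _ := mul_one _)
  exact lt_irrefl _ h4

end Vale.Agent.P181.H303
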