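import Mathlib

/-!
P181, `b = q a`, first row at most `K b` with `K` a power of `a`: rows of the analytic proof.
-/

set_option autoImplicit false

namespace Vale.Agent.P181.H303

open Finset

/-- Finite combinations of elements of `G` with sum of absolute values of coefficients `≤ c`. -/
def AH {W : Type*} [AddCommGroup W] [Module ℂ W] (G : Set W) (c : ℝ) : Set W :=
  {x | ∃ (m : ℕ) (w : Fin m → ℂ) (g : Fin m → W), (∀ i, g i ∈ G) ∧ ∑ i, ‖w i‖ ≤ c ∧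
    x = ∑ i, w i • g i}

/-- Monomials of degree `m` in the `y i`. -/
def Mono {A : Type*} [CommRing A] {s : ℕ} (y : Fin s → A) (m : ℕ) : Set A :=
  {x | ∃ α : Fin s → ℕ, ∑ i, α i = m ∧ x = ∏ i, y i ^ α i}

/-- Symmetric multilinear maps. -/
def Sy {A W : Type*} [AddCommGroup A] [Module ℂ A] [AddCommGroup W] [Module ℂ W] {s : ℕ}
    (T : MultilinearMap ℂ (fun _ : Fin s => A) W) : Prop :=
  ∀ (σ : Equiv.Perm (Fin s)) (P : Fin s → A), T (fun i => P (σ i)) = T P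

/-- Number of Vandermonde vectors. -/
def TT (s : ℕ) : ℕ := s * (s - 1) + 1

/-- Condition number. -/
def vv (s : ℕ) : ℕ := (s * TT s) ^ (4 * (s * s))

/-! ### V: well conditioned vectors -/

/-- `TT s` vectors of `ℓ¹` norm at most `1`, any `s` of which are a well conditioned basis. -/
def RowV : Prop := ∀ s : ℕ, 1 ≤ s → ∃ L : Fin (TT s) → Fin s → ℂ,
  (∀ t, ∑ j, ‖L t j‖ ≤ 1) ∧
  ∀ S : Finset (Fin (TT s)), s ≤ S.card → ∀ j : Fin s, ∃ β : Fin (TT s) → ℂ,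
    (∀ t, t ∉ S → β t = 0) ∧ ∑ t, ‖β t‖ ≤ vv s ∧
    ∀ i : Fin s, ∑ t, β t * L t i = if i = j then 1 else 0

/-! ### TH: one step of theta extraction. `L` is as in `RowV`. -/

def RowTH : Prop := ∀ (s : ℕ), 1 ≤ s → ∀ (L : Fin (TT s) → Fin s → ℂ),
  (∀ t, ∑ j, ‖L t j‖ ≤ 1) →
  (∀ S : Finset (Fin (TT s)), s ≤ S.card → ∀ j : Fin s, ∃ β : Fin (TT s) → ℂ,
    (∀ t, t ∉ S → β t = 0) ∧ ∑ t, ‖β t‖ ≤ vv s ∧
    ∀ i : Fin s, ∑ t, β t * L t i = if i = j then 1 else 0) →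
  ∀ (A W : Type) [CommRing A] [Algebra ℂ A] [AddCommGroup W] [Module ℂ W]
    (T : MultilinearMap ℂ (fun _ : Fin s => A) W) (z : Fin s → A) (M : ℕ),
    (s - 1) * (s - 1) ≤ M → ∀ P : Fin s → A, (∀ i, P i ∈ Mono z (M + 1)) →
    T P ∈ AH {x | ∃ (t : Fin (TT s)) (Q : Fin s → A), (∀ i, Q i ∈ Mono z M) ∧
      x = T (fun i => (∑ j, L t j • z j) * Q i)} ((vv s : ℝ) ^ (s * (s * s)))

/-! ### TI: iteration (from TH, applied to `T` composed with multiplications) -/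

def RowTI : Prop := ∀ (s : ℕ), 1 ≤ s → ∀ (L : Fin (TT s) → Fin s → ℂ),
  (∀ t, ∑ j, ‖L t j‖ ≤ 1) →
  (∀ S : Finset (Fin (TT s)), s ≤ S.card → ∀ j : Fin s, ∃ β : Fin (TT s) → ℂ,
    (∀ t, t ∉ S → β t = 0) ∧ ∑ t, ‖β t‖ ≤ vv s ∧
    ∀ i : Fin s, ∑ t, β t * L t i = if i = j then 1 else 0) →
  ∀ (A W : Type) [CommRing A] [Algebra ℂ A] [AddCommGroup W] [Module ℂ W]
    (T : MultilinearMap ℂ (fun _ : Fin s => A) W) (z : Fin s → A) (N : ℕ)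
    (P : Fin s → A), (∀ i, P i ∈ Mono z ((s - 1) * (s - 1) + N)) →
    T P ∈ AH {x | ∃ (μ : Fin (TT s) → ℕ) (Q : Fin s → A), ∑ t, μ t = N ∧
      (∀ i, Q i ∈ Mono z ((s - 1) * (s - 1))) ∧
      x = T (fun i => (∏ t, (∑ j, L t j • z j) ^ μ t) * Q i)} ((vv s : ℝ) ^ (s * (s * s) * N))

/-! ### AR: arithmetic of exponents -/

def RowAR : Prop := ∀ (s q d k : ℕ) (τ : ℕ), 1 ≤ s → 1 ≤ q →
  (s - 1) * (s - 1) + τ * q ≤ d → s * d ≤ k →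
  ∀ μ : Fin τ → ℕ, ∑ t, μ t + (s - 1) * (s - 1) = q * k → (d + τ) * (s * q) ≤ ∑ t, μ t →
  ∃ α β ρ : Fin τ → ℕ, (∀ t, μ t = (s * q - 1) * α t + q * β t + ρ t) ∧ ∑ t, α t = d ∧
    ∑ t, β t + s * d = k ∧ ∑ t, ρ t + (s - 1) * (s - 1) = d

/-! ### KEY, quantitative -/

def RowKEY : Prop := ∀ (s q D D2 : ℕ), 1 ≤ s → 1 ≤ q →
  ∀ (A W : Type) [CommRing A] [Algebra ℂ A] [AddCommGroup W] [Module ℂ W]
    (T : MultilinearMap ℂ (fun _ : Fin s => A) W), Sy T → ∀ (y : Fin s → A),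
    ∀ φ ∈ AH (Mono y D) 1, ∀ f2 ∈ AH (Mono y D2) 1, ∀ h : Fin s → A,
    (∀ i, h i ∈ AH (Mono y D) 1) →
    T (fun i => f2 ^ q * (φ ^ (s * q - 1) * h i)) ∈
      AH {x | ∃ f ∈ AH (Mono y (s * D + D2)) 1, x = T (fun _ => f ^ q)}
        ((s : ℝ) ^ s * ((s : ℝ) + 1) ^ (s * q))

/-! ### PM, quantitative -/

def RowPM : Prop := ∃ C : ℕ, ∀ (s q a : ℕ), 1 ≤ s → 1 ≤ q → C * (q * s ^ 6) ≤ a →
  ∀ (A W : Type) [CommRing A] [Algebra ℂ A] [AddCommGroup W] [Module ℂ W]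
    (T : MultilinearMap ℂ (fun _ : Fin s => A) W), Sy T → ∀ (y : Fin s → A),
    T (fun i => y i ^ (q * a)) ∈
      AH {x | ∃ f ∈ AH (Mono y a) 1, x = T (fun _ => f ^ q)} (Real.exp (C * (q ^ 2 * s ^ 12)))

/-! ### Analytic side -/

abbrev EE (n : ℕ) := EuclideanSpace ℂ (Fin n)

/-- Linear form with coefficient vector `u`. -/
noncomputable def lin {n : ℕ} (u : EE n) : MvPolynomial (Fin n) ℂ :=
  ∑ j, u j • MvPolynomial.X j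

/-- `h` costs at most `c` in degree `b`. -/
def Bd {n : ℕ} (b : ℕ) (h : MvPolynomial (Fin n) ℂ) (c : ℝ) : Prop :=
  ∀ (T : MvPolynomial (Fin n) ℂ →ₗ[ℂ] ℂ) (M : ℝ),
    (∀ u : EE n, ‖u‖ = 1 → ‖T (lin u ^ b)‖ ≤ M) → ‖T h‖ ≤ c * M

/-- Monomials of degree `m` in the `y i`, `i ∈ R`. -/
def MonoF {A : Type*} [CommRing A] {a : ℕ} (y : Fin a → A) (R : Finset (Fin a)) (m : ℕ) : Set A :=
  {x | ∃ α : Fin a → ℕ, (∀ i, i ∉ R → α i = 0) ∧ ∑ i, α i = m ∧ x = ∏ i, y i ^ α i}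

/-- CF: cost of several rows. -/
def RowCF : Prop := ∀ (a b n : ℕ)
  (F : MultilinearMap ℂ (fun _ : Fin a => MvPolynomial (Fin n) ℂ) ℂ) (μ : ℝ),
  (∀ u : Fin a → EE n, (∀ i, ‖u i‖ = 1) → ‖F (fun i => lin (u i) ^ b)‖ ≤ μ) →
  ∀ (h : Fin a → MvPolynomial (Fin n) ℂ) (c : Fin a → ℝ), (∀ r, 0 ≤ c r) →
  (∀ r, Bd b (h r) (c r)) → ‖F h‖ ≤ (∏ r, c r) * μ

/-- CO: cost of a product of powers of unit vectors; the second part with two separated vectors. -/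
def RowCO : Prop := ∀ (n b : ℕ) (ι : Type) [Fintype ι] (x : ι → EE (n + 1)) (m : ι → ℕ),
  (∀ i, ‖x i‖ = 1) → ∑ i, m i = b →
  Bd b (∏ i, lin (x i) ^ m i) (((b : ℝ) + 1) ^ Fintype.card ι) ∧
  ∀ (i j : ι) (t δ : ℝ), i ≠ j → 0 ≤ t → t ≤ m i → t ≤ m j → 0 ≤ δ →
    ‖inner ℂ (x i) (x j)‖ ^ 2 ≤ 1 - δ →
    Bd b (∏ i, lin (x i) ^ m i) (((b : ℝ) + 1) ^ Fintype.card ι * Real.exp (-(t * δ / 4)))

/-- MIX: cost of a product of `q` forms of degree `a`, each living on one cluster (from CO). -/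
def RowMIX : Prop := ∀ (a q n S : ℕ) (x : Fin a → EE (n + 1)) (cl : Fin a → Fin a) (δ : ℝ),
  1 ≤ a → 1 ≤ S → (∀ i, ‖x i‖ = 1) → (∀ c, (univ.filter (fun i => cl i = c)).card ≤ S) →
  0 ≤ δ → (∀ i j, cl i ≠ cl j → ‖inner ℂ (x i) (x j)‖ ^ 2 ≤ 1 - δ) →
  ∀ (c : Fin q → Fin a) (g : Fin q → MvPolynomial (Fin (n + 1)) ℂ),
  (∀ l, g l ∈ AH (MonoF (fun i => lin (x i)) (univ.filter (fun i => cl i = c l)) a) 1) →
  Bd (q * a) (∏ l, g l) (((q * a : ℕ) + 1 : ℝ) ^ (q * S)) ∧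
  ((∃ l l', c l ≠ c l') → Bd (q * a) (∏ l, g l)
    (((q * a : ℕ) + 1 : ℝ) ^ (q * S) * Real.exp (-((a : ℝ) / S * δ / 4))))

/-- CL: clusters. -/
def RowCL : Prop := ∀ (a n K : ℕ) (x : Fin a → EE (n + 1)), 1 ≤ K → (∀ i, ‖x i‖ = 1) →
  (∀ e : EE (n + 1), ‖e‖ = 1 → ∑ i, ‖inner ℂ e (x i)‖ ^ 2 ≤ K) →
  ∃ cl : Fin a → Fin a, (∀ c, (univ.filter (fun i => cl i = c)).card ≤ 2 * K) ∧
    ∀ i j, cl i ≠ cl j → ‖inner ℂ (x i) (x j)‖ ^ 2 ≤ 1 - 1 / (16 * (K : ℝ) ^ 2)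

/-- BN: Bernstein at a maximum. `N` = bound for the degree. -/
def RowBN : Prop := ∀ (a b n N : ℕ)
  (F : MultilinearMap ℂ (fun _ : Fin a => MvPolynomial (Fin (n + 1)) ℂ) ℂ),
  1 ≤ a → 1 ≤ b →
  (∀ (u : Fin a → EE (n + 1)) (e : EE (n + 1)), ‖e‖ = 1 → e 0 ≠ 0 → ∃ p : Polynomial ℂ,
    p.natDegree ≤ N ∧ ∀ z : ℂ, z ≠ 0 →
      F (fun i => lin (u i + ((z - 1) * inner ℂ e (u i)) • e) ^ b) = p.eval z) →
  (∃ u : Fin a → EE (n + 1), F (fun i => lin (u i) ^ b) ≠ 0) →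
  ∃ x : Fin a → EE (n + 1), (∀ i, ‖x i‖ = 1) ∧ 0 < ‖F (fun i => lin (x i) ^ b)‖ ∧
    (∀ u : Fin a → EE (n + 1), (∀ i, ‖u i‖ = 1) →
      ‖F (fun i => lin (u i) ^ b)‖ ≤ ‖F (fun i => lin (x i) ^ b)‖) ∧
    ∀ e : EE (n + 1), ‖e‖ = 1 → (b : ℝ) * ∑ i, ‖inner ℂ e (x i)‖ ^ 2 ≤ N

/-- REP: representation of the rows of a cluster, from the quantitative black box. -/
def RowREP (B : ℕ → ℕ → ℝ) : Prop := ∀ (a q n : ℕ) (x : Fin a → EE (n + 1))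
  (F : MultilinearMap ℂ (fun _ : Fin a => MvPolynomial (Fin (n + 1)) ℂ) ℂ), Sy F →
  ∀ (C : Finset (Fin a)), (∀ (W : Type) [AddCommGroup W] [Module ℂ W]
    (T : MultilinearMap ℂ (fun _ : Fin C.card => MvPolynomial (Fin (n + 1)) ℂ) W), Sy T →
    ∀ (y : Fin C.card → MvPolynomial (Fin (n + 1)) ℂ), T (fun i => y i ^ (q * a)) ∈
      AH {x | ∃ f ∈ AH (Mono y a) 1, x = T (fun _ => f ^ q)} (B C.card q)) →
  ∃ (J : ℕ) (w : Fin J → ℂ) (f : Fin J → MvPolynomial (Fin (n + 1)) ℂ),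
    ∑ j, ‖w j‖ ≤ B C.card q ∧ (∀ j, f j ∈ AH (MonoF (fun i => lin (x i)) C a) 1) ∧
    ∀ (R : Finset (Fin a)) (ρ : Fin a → Fin a), Set.BijOn ρ R C →
      ∀ h : Fin a → MvPolynomial (Fin (n + 1)) ℂ,
      ∑ j, w j * F (fun r => if r ∈ R then f j ^ q else h r) =
        F (fun r => if r ∈ R then lin (x (ρ r)) ^ (q * a) else h r)

/-- RES: exact resummation. -/
def RowRES : Prop := ∀ (A : Type) [CommRing A] [Algebra ℂ A] (a q S J : ℕ)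
  (F : MultilinearMap ℂ (fun _ : Fin a => A) ℂ), 1 ≤ q → Sy F →
  ∀ (L : Submodule ℂ A), (∀ f ∈ L, F (fun _ => f ^ q) = 0) →
  ∀ (cl : Fin a → Fin a), (∀ c, (univ.filter (fun i => cl i = c)).card ≤ S) →
  ∀ (P : Fin a → A) (w : Fin a → Fin J → ℂ) (f : Fin a → Fin J → A) (B Ω ε μ : ℝ),
  1 ≤ B → 1 ≤ Ω → 0 ≤ ε → 0 ≤ μ → (∀ c j, f c j ∈ L) → (∀ c, ∑ j, ‖w c j‖ ≤ B) →
  (∀ (c : Fin a) (R : Finset (Fin a)) (ρ : Fin a → Fin a),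
    Set.BijOn ρ R (univ.filter (fun i => cl i = c) : Finset (Fin a)) → ∀ h : Fin a → A,
    ∑ j, w c j * F (fun r => if r ∈ R then f c j ^ q else h r) =
      F (fun r => if r ∈ R then P (ρ r) else h r)) →
  ∀ (Ct : A → ℝ → Prop), (∀ i, Ct (P i) 1) → (∀ c j, Ct (f c j ^ q) Ω) →
  (∀ (k : Fin q → Fin a) (j : Fin a → Fin J), (∃ l l', k l ≠ k l') →
    Ct (∏ l, f (k l) (j (k l))) ε) →
  (∀ (h : Fin a → A) (c : Fin a → ℝ), (∀ r, 0 ≤ c r) → (∀ r, Ct (h r) (c r)) →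
    ‖F h‖ ≤ (∏ r, c r) * μ) →
  ‖F P‖ ≤ μ * ((1 + (a : ℝ) ^ q * (ε * (B * Ω ^ S) ^ q)) ^ a - 1)

/-- RES1: extraction of the coefficient (first half of RES). `K r` = the classes of the `q` forms
in row `r`. -/
def RowRES1 : Prop := ∀ (A : Type) [CommRing A] [Algebra ℂ A] (a q : ℕ)
  (F : MultilinearMap ℂ (fun _ : Fin a => A) ℂ) (L : Submodule ℂ A),
  (∀ f ∈ L, F (fun _ => f ^ q) = 0) → ∀ (f : Fin a → A), (∀ c, f c ∈ L) → ∀ s : Fin a → ℕ,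
  ∑ K ∈ (univ : Finset (Fin a → Fin q → Fin a)).filter (fun K => ∀ c,
      (univ.filter (fun p : Fin a × Fin q => K p.1 p.2 = c)).card = s c),
    F (fun r => ∏ l, f (K r l)) = 0

/-- RES3: counting. `pu K` = set of rows of `K` which are not constant. -/
def RowRES3 : Prop := ∀ (a q : ℕ) (ω : ℝ), 1 ≤ q → 0 ≤ ω → ∀ s : Fin a → ℕ, ∑ c, s c = a →
  ∑ K ∈ (univ : Finset (Fin a → Fin q → Fin a)).filter (fun K => (∀ c,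
      (univ.filter (fun p : Fin a × Fin q => K p.1 p.2 = c)).card = q * s c) ∧
      ∃ r l l', K r l ≠ K r l'),
    ω ^ (univ.filter (fun r => ∃ l l', K r l ≠ K r l')).card ≤
  ((univ : Finset (Fin a → Fin a)).filter (fun p => ∀ c,
      (univ.filter (fun r => p r = c)).card = s c)).card * ((1 + (a : ℝ) ^ q * ω) ^ a - 1)

/-- NUM: final numerics (`C0` = the constant of `RowPM`, `S = 2 K`). -/
def RowNUM : Prop := ∀ C0 : ℕ, ∃ C : ℕ, ∀ (a q K : ℕ), 1 ≤ q → 1 ≤ K →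
  (C : ℝ) * ((q : ℝ) ^ 3 * (K : ℝ) ^ 15 * Real.log a) ≤ a → 2 ≤ a →
  (∀ s, s ≤ 2 * K → C0 * (q * s ^ 6) ≤ a) ∧
  (1 + (a : ℝ) ^ q * ((((q * a : ℕ) + 1 : ℝ) ^ (q * (2 * K)) *
      Real.exp (-((a : ℝ) / (2 * K : ℕ) * (1 / (16 * (K : ℝ) ^ 2)) / 4))) *
    (Real.exp (C0 * (q ^ 2 * (2 * K : ℕ) ^ 12)) *
      (((q * a : ℕ) + 1 : ℝ) ^ (q * (2 * K))) ^ (2 * K)) ^ q)) ^ a - 1 < 1

end Vale.Agent.P181.H303
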