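import Vale.Agent.P181.H303.Spec
import Vale.Agent.P181.H179.P8

set_option autoImplicit false

open scoped TensorProduct

namespace Vale.Agent.P181.H303

open Vale.Agent.P181 Vale.Agent.P181.H280 Finset

/-- HW: degree bound for a highest weight vector. -/
def RowHW : Prop := ∀ (a b n : ℕ) (lam : Fin (n + 1) → ℕ)
  (l : (Fin a → Fin b → (Fin (n + 1) → ℂ)) →₀ ℂ), elOf l ∈ hwSpace lam (plethAct a b (n + 1)) →
  ∀ (u : Fin a → EE (n + 1)) (e : EE (n + 1)), ‖e‖ = 1 → e 0 ≠ 0 → ∃ p : Polynomial ℂ,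
    p.natDegree ≤ lam 0 ∧ ∀ z : ℂ, z ≠ 0 →
      formOf l (fun i => lin (u i + ((z - 1) * inner ℂ e (u i)) • e) ^ b) = p.eval z

/-- NZ: a form is determined by its values on powers of linear forms. -/
def RowNZ : Prop := ∀ (a b n : ℕ) (l : (Fin a → Fin b → (Fin (n + 1) → ℂ)) →₀ ℂ),
  elOf l ≠ 0 → ∃ u : Fin a → EE (n + 1), formOf l (fun i => lin (u i) ^ b) ≠ 0

/-- FIN: the theorem. -/
def RowFIN : Prop := ∃ C : ℕ, ∀ (a q K n : ℕ), 1 ≤ q → 1 ≤ K → 2 ≤ a →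
  (C : ℝ) * ((q : ℝ) ^ 3 * (K : ℝ) ^ 15 * Real.log a) ≤ a → ∀ lam : Fin (n + 1) → ℕ,
  lam 0 ≤ K * (q * a) → ∀ x : Sym[ℂ]^a (Sym[ℂ]^(q * a) (Fin (n + 1) → ℂ)),
    x ∈ hwSpace lam (plethAct a (q * a) (n + 1)) →
    powMap a q (Fin (n + 1) → ℂ) x = 0 → x = 0

end Vale.Agent.P181.H303
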